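import Vale.Agent.P183.R2.H849.NetCor

/-! P183: symmetric nets of ideals form a group interval, from the theorem on intermediate rings
invariant under automorphisms and antiautomorphisms. -/

namespace Vale.Agent.P183.H577

open Matrix Vale.Agent.P183 Vale.Agent.P183.H996 Vale.Agent.P183.H994

namespace H849

variable {R X : Type} [CommRing R] [Fintype X] [DecidableEq X]

/-- the ring of the diagonal matrices -/
def diagRing (R X : Type) [CommRing R] [Fintype X] [DecidableEq X] : Subring (Matrix X X R) where
  carrier := {M | ∀ x y, x ≠ y → M x y = 0}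
  mul_mem' := by
    intro M N hM hN x z hxz
    rw [Matrix.mul_apply]
    refine Finset.sum_eq_zero fun y _ => ?_
    by_cases h : x = y
    · rw [hN y z (h ▸ hxz), mul_zero]
    · rw [hM x y h, zero_mul]
  one_mem' := by
    intro x y h
    exact Matrix.one_apply_ne h
  add_mem' := by
    intro M N hM hN x y h
    rw [Matrix.add_apply, hM x y h, hN x y h, add_zero]
  zero_mem' := fun _ _ _ => rfl
  neg_mem' := by
    intro M hM x y h
    rw [Matrix.neg_apply, hM x y h, neg_zero]

theorem mem_diagRing {M : Matrix X X R} : M ∈ diagRing R X ↔ ∀ x y, x ≠ y → M x y = 0 := Iff.rfl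

theorem single_diag (x : X) (r : R) : Matrix.single x x r ∈ diagRing R X := by
  intro a b hab
  rw [Matrix.single_apply]
  refine if_neg ?_
  rintro ⟨rfl, rfl⟩
  exact hab rfl

theorem corner_of_le {C : Subring (Matrix X X R)} (hC : diagRing R X ≤ C) (x : X)
    (M : Matrix X X R) : Matrix.single x x (1 : R) * M * Matrix.single x x (1 : R) ∈ C := by
  rw [corner]
  exact hC (single_diag x _)

/-- symmetric nets and rings of matrices closed under transposition -/
theorem snet_iso : Nonempty ({s : X → X → Ideal R // (∀ x, s x x = ⊤) ∧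
      (∀ x y, s x y = s y x) ∧ ∀ x y z, s x y * s y z ≤ s x z} ≃o
    {C : Subring (Matrix X X R) // diagRing R X ≤ C ∧
      ∀ θ ∈ ({Matrix.transposeAddEquiv X X R} : Set (Matrix X X R ≃+ Matrix X X R)),
        ∀ c ∈ C, θ c ∈ C}) := by
  refine ⟨{ toFun := fun s => ⟨netRing ⟨s.1, s.2.1, s.2.2.2⟩, ?_, ?_⟩
            invFun := fun C => ⟨(ringNet C.1 (corner_of_le C.2.1)).1,
              (ringNet C.1 (corner_of_le C.2.1)).2.1, ?_,
              (ringNet C.1 (corner_of_le C.2.1)).2.2⟩
            left_inv := ?_
            right_inv := ?_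
            map_rel_iff' := ?_ }⟩
  · intro M hM x y
    by_cases h : x = y
    · subst h
      show M x x ∈ s.1 x x
      rw [s.2.1 x]
      exact Submodule.mem_top
    · rw [hM x y h]
      exact Ideal.zero_mem _
  · intro θ hθ M hM x y
    rw [Set.mem_singleton_iff] at hθ
    subst hθ
    show M y x ∈ s.1 x y
    rw [s.2.2.1 x y]
    exact hM y x
  · have key : ∀ x y : X, (ringNet C.1 (corner_of_le C.2.1)).1 x y ≤
        (ringNet C.1 (corner_of_le C.2.1)).1 y x := by
      intro x y r hr
      rw [mem_ringNet] at hr ⊢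
      have h1 := C.2.2 _ rfl _ hr
      have h2 : Matrix.transposeAddEquiv X X R (Matrix.single x y r) = Matrix.single y x r := by
        show (Matrix.single x y r)ᵀ = _
        exact Matrix.transpose_single x y r
      rwa [h2] at h1
    exact fun x y => le_antisymm (key x y) (key y x)
  · intro s
    apply Subtype.ext
    funext x y
    ext r
    exact single_mem (s := ⟨s.1, s.2.1, s.2.2.2⟩)
  · intro C
    apply Subtype.ext
    ext M
    show (∀ x y, Matrix.single x y (M x y) ∈ C.1) ↔ M ∈ C.1
    constructor
    · intro h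
      rw [Matrix.matrix_eq_sum_single M]
      exact C.1.sum_mem fun x _ => C.1.sum_mem fun y _ => h x y
    · intro h x y
      have h1 : ∀ z : X, Matrix.single z z (1 : R) ∈ C.1 := fun z => C.2.1 (single_diag z 1)
      have h2 := C.1.mul_mem (C.1.mul_mem (h1 x) h) (h1 y)
      rwa [corner] at h2
  · intro s t
    constructor
    · intro h x y r hr
      exact (single_mem (s := ⟨t.1, t.2.1, t.2.2.2⟩)).1
        (h ((single_mem (s := ⟨s.1, s.2.1, s.2.2.2⟩)).2 hr))
    · intro h M hM x y
      exact h x y (hM x y)

end H849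

/-- **Symmetric nets of ideals.** -/
theorem snet_row
    (h : ∀ (R : Type) [Ring R] [Finite R] (n : ℕ) (e : Fin n → R), (∀ i, e i * e i = e i) →
      (∀ i j, i ≠ j → e i * e j = 0) → ∑ i, e i = 1 →
      ∀ Θ : Set (R ≃+ R),
        (∀ θ ∈ Θ, (∀ x y, θ (x * y) = θ x * θ y) ∨ (∀ x y, θ (x * y) = θ y * θ x)) →
        (∀ θ ∈ Θ, ∀ i, θ (e i) = e i) →
        ∀ A : Subring R, (∀ i x, e i * x * e i ∈ A) → (∀ θ ∈ Θ, ∀ a ∈ A, θ a ∈ A) →
          GroupInterval {C : Subring R // A ≤ C ∧ ∀ θ ∈ Θ, ∀ c ∈ C, θ c ∈ C})
    (R X : Type) [CommRing R] [Finite R] [Finite X] :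
    GroupInterval {s : X → X → Ideal R // (∀ x, s x x = ⊤) ∧ (∀ x y, s x y = s y x) ∧
      ∀ x y z, s x y * s y z ≤ s x z} := by
  classical
  have : Fintype X := Fintype.ofFinite X
  have hfin : Finite (Matrix X X R) := inferInstanceAs (Finite (X → X → R))
  let σ : Fin (Fintype.card X) ≃ X := (Fintype.equivFin X).symm
  have h1 := h (Matrix X X R) (Fintype.card X) (fun i => Matrix.single (σ i) (σ i) (1 : R))
    (fun i => by
      show Matrix.single (σ i) (σ i) (1 : R) * Matrix.single (σ i) (σ i) (1 : R) = _
      rw [Matrix.single_mul_single_same, one_mul])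
    (fun i j hij => by
      show Matrix.single (σ i) (σ i) (1 : R) * Matrix.single (σ j) (σ j) (1 : R) = 0
      exact Matrix.single_mul_single_of_ne _ _ _ _ (fun h => hij (σ.injective h)) _)
    (by
      show ∑ i, Matrix.single (σ i) (σ i) (1 : R) = 1
      rw [Equiv.sum_comp σ (fun x => Matrix.single x x (1 : R))]
      ext a b
      rw [Matrix.sum_apply, Matrix.one_apply]
      simp only [Matrix.single_apply]
      by_cases hab : a = b
      · subst hab
        simp
      · rw [if_neg hab]
        refine Finset.sum_eq_zero fun x _ => ?_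
        rw [if_neg]
        rintro ⟨rfl, rfl⟩
        exact hab rfl)
    {Matrix.transposeAddEquiv X X R}
    (by
      intro θ hθ
      rw [Set.mem_singleton_iff] at hθ
      subst hθ
      exact Or.inr fun M N => Matrix.transpose_mul M N)
    (by
      intro θ hθ i
      rw [Set.mem_singleton_iff] at hθ
      subst hθ
      exact Matrix.transpose_single (σ i) (σ i) (1 : R))
    (H849.diagRing R X)
    (fun i M => by
      show Matrix.single (σ i) (σ i) (1 : R) * M * Matrix.single (σ i) (σ i) (1 : R) ∈ _
      exact H849.corner_of_le le_rfl (σ i) M)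
    (by
      intro θ hθ M hM x y hxy
      rw [Set.mem_singleton_iff] at hθ
      subst hθ
      exact hM y x hxy.symm)
  obtain ⟨f⟩ := H849.snet_iso (R := R) (X := X)
  exact GroupInterval.of_iso f h1

end Vale.Agent.P183.H577
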