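import Vale.Agent.P183.R2.H577.Base
import Vale.Agent.P183.H996.Dual
import Vale.Agent.P183.H994.Nets

/-! P183: nets of ideals over a finite local ring form a group interval, from the theorem on
intermediate rings. -/

namespace Vale.Agent.P183.H577

open Matrix Vale.Agent.P183 Vale.Agent.P183.H996 Vale.Agent.P183.H994

namespace H849

variable {R X : Type} [CommRing R] [Fintype X] [DecidableEq X]

/-- the subring of the matrices with entries in a net of ideals -/
def netRing (s : Net R X) : Subring (Matrix X X R) where
  carrier := {M | ∀ x y, M x y ∈ s.1 x y}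
  mul_mem' := by
    intro M N hM hN x z
    rw [Matrix.mul_apply]
    exact Ideal.sum_mem _ fun y _ => s.2.2 x y z (Ideal.mul_mem_mul (hM x y) (hN y z))
  one_mem' := by
    intro x y
    rw [Matrix.one_apply]
    split_ifs with h
    · subst h
      rw [s.2.1 x]
      exact Submodule.mem_top
    · exact Ideal.zero_mem _
  add_mem' := by
    intro M N hM hN x y
    exact Ideal.add_mem _ (hM x y) (hN x y)
  zero_mem' := by
    intro x y
    exact Ideal.zero_mem _
  neg_mem' := by
    intro M hM x y
    exact (Ideal.neg_mem_iff _).2 (hM x y)

theorem mem_netRing {s : Net R X} {M : Matrix X X R} :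
    M ∈ netRing s ↔ ∀ x y, M x y ∈ s.1 x y := Iff.rfl

theorem single_mem {s : Net R X} {x y : X} {r : R} :
    Matrix.single x y r ∈ netRing s ↔ r ∈ s.1 x y := by
  constructor
  · intro h
    have := h x y
    rwa [Matrix.single_apply_same] at this
  · intro h a b
    rw [Matrix.single_apply]
    split_ifs with hab
    · obtain ⟨rfl, rfl⟩ := hab
      exact h
    · exact Ideal.zero_mem _

theorem corner (x y : X) (M : Matrix X X R) :
    Matrix.single x x (1 : R) * M * Matrix.single y y (1 : R) = Matrix.single x y (M x y) := by
  rw [Matrix.single_mul_mul_single, one_mul, mul_one]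

omit [Fintype X] in
theorem single_sub' (x y : X) (a b : R) :
    Matrix.single x y a - Matrix.single x y b = Matrix.single x y (a - b) := by
  rw [sub_eq_iff_eq_add, ← Matrix.single_add, sub_add_cancel]

/-- the net of a subring -/
def ringNet (S : Subring (Matrix X X R))
    (hS : ∀ (x : X) (M : Matrix X X R), Matrix.single x x (1 : R) * M * Matrix.single x x (1 : R) ∈ S) :
    Net R X :=
  ⟨fun x y =>
    { carrier := {r | Matrix.single x y r ∈ S}
      add_mem' := by
        intro a b ha hb
        show Matrix.single x y (a + b) ∈ S
        rw [Matrix.single_add]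
        exact S.add_mem ha hb
      zero_mem' := by
        show Matrix.single x y (0 : R) ∈ S
        rw [Matrix.single_zero]
        exact S.zero_mem
      smul_mem' := by
        intro c r hr
        show Matrix.single x y (c * r) ∈ S
        have h1 : Matrix.single x y (c * r) = Matrix.single x x c * Matrix.single x y r := by
          rw [Matrix.single_mul_single_same]
        rw [h1]
        refine S.mul_mem ?_ hr
        have h2 := hS x (Matrix.single x x c)
        rwa [corner, Matrix.single_apply_same] at h2 },
    fun x => by
      refine (Ideal.eq_top_iff_one _).2 ?_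
      show Matrix.single x x (1 : R) ∈ S
      have h2 := hS x (Matrix.single x x 1)
      rwa [corner, Matrix.single_apply_same] at h2,
    fun x y z => by
      refine Ideal.mul_le.2 fun r hr t ht => ?_
      show Matrix.single x z (r * t) ∈ S
      have h1 : Matrix.single x z (r * t) = Matrix.single x y r * Matrix.single y z t := by
        rw [Matrix.single_mul_single_same]
      rw [h1]
      exact S.mul_mem hr ht⟩

theorem mem_ringNet {S : Subring (Matrix X X R)}
    {hS : ∀ (x : X) (M : Matrix X X R), Matrix.single x x (1 : R) * M * Matrix.single x x (1 : R) ∈ S}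
    {x y : X} {r : R} : r ∈ (ringNet S hS).1 x y ↔ Matrix.single x y r ∈ S := Iff.rfl

theorem net_iso : Nonempty (Net R X ≃o {S : Subring (Matrix X X R) //
    ∀ (x : X) (M : Matrix X X R), Matrix.single x x (1 : R) * M * Matrix.single x x (1 : R) ∈ S}) := by
  refine ⟨{ toFun := fun s => ⟨netRing s, fun x M => ?_⟩
            invFun := fun S => ringNet S.1 S.2
            left_inv := ?_
            right_inv := ?_
            map_rel_iff' := ?_ }⟩
  · rw [corner, single_mem, s.2.1 x]
    exact Submodule.mem_top
  · intro s
    apply Subtype.ext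
    funext x y
    ext r
    exact single_mem
  · intro S
    apply Subtype.ext
    ext M
    show (∀ x y, Matrix.single x y (M x y) ∈ S.1) ↔ M ∈ S.1
    constructor
    · intro h
      rw [Matrix.matrix_eq_sum_single M]
      exact S.1.sum_mem fun x _ => S.1.sum_mem fun y _ => h x y
    · intro h x y
      have h1 : ∀ z : X, Matrix.single z z (1 : R) ∈ S.1 := fun z => by
        have h2 := S.2 z (Matrix.single z z 1)
        rwa [corner, Matrix.single_apply_same] at h2
      have h2 := S.1.mul_mem (S.1.mul_mem (h1 x) h) (h1 y)
      rwa [corner] at h2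
  · intro s t
    constructor
    · intro h x y r hr
      exact single_mem.1 (h (single_mem.2 hr))
    · intro h M hM x y
      exact h x y (hM x y)

end H849

/-- **Nets of ideals.** -/
theorem net_row
    (h : ∀ (R : Type) [Ring R] [Finite R] (n : ℕ) (e : Fin n → R), (∀ i, e i * e i = e i) →
      (∀ i j, i ≠ j → e i * e j = 0) → ∑ i, e i = 1 →
      (∀ i x, e i * x = x → x * e i = x →
        (∃ y, e i * y = y ∧ y * e i = y ∧ x * y = e i ∧ y * x = e i) ∨
        (∃ y, e i * y = y ∧ y * e i = y ∧ (e i - x) * y = e i ∧ y * (e i - x) = e i)) →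
      GroupInterval {S : Subring R // ∀ i x, e i * x * e i ∈ S})
    (R X : Type) [CommRing R] [IsLocalRing R] [Finite R] [Finite X] :
    GroupInterval (Net R X) := by
  classical
  have : Fintype X := Fintype.ofFinite X
  have hfin : Finite (Matrix X X R) := inferInstanceAs (Finite (X → X → R))
  let σ : Fin (Fintype.card X) ≃ X := (Fintype.equivFin X).symm
  have h1 := h (Matrix X X R) (Fintype.card X) (fun i => Matrix.single (σ i) (σ i) (1 : R))
    (fun i => by
      show Matrix.single (σ i) (σ i) (1 : R) * Matrix.single (σ i) (σ i) (1 : R) = _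
      rw [Matrix.single_mul_single_same, one_mul])
    (fun i j hij => by
      show Matrix.single (σ i) (σ i) (1 : R) * Matrix.single (σ j) (σ j) (1 : R) = 0
      exact Matrix.single_mul_single_of_ne _ _ _ _ (fun h => hij (σ.injective h)) _)
    (by
      show ∑ i, Matrix.single (σ i) (σ i) (1 : R) = 1
      rw [Equiv.sum_comp σ (fun x => Matrix.single x x (1 : R))]
      ext a b
      rw [Matrix.sum_apply, Matrix.one_apply]
      simp only [Matrix.single_apply]
      by_cases hab : a = b
      · subst hab
        simp
      · rw [if_neg hab]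
        refine Finset.sum_eq_zero fun x _ => ?_
        rw [if_neg]
        rintro ⟨rfl, rfl⟩
        exact hab rfl)
    (by
      intro i M hM1 hM2
      change Matrix.single (σ i) (σ i) (1 : R) * M = M at hM1
      change M * Matrix.single (σ i) (σ i) (1 : R) = M at hM2
      have hM : M = Matrix.single (σ i) (σ i) (M (σ i) (σ i)) := by
        conv_lhs => rw [← hM2, ← hM1]
        exact H849.corner (σ i) (σ i) M
      generalize M (σ i) (σ i) = r at hM
      subst hM
      rcases IsLocalRing.isUnit_or_isUnit_one_sub_self r with hu | hu
      · obtain ⟨u, rfl⟩ := hu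
        refine Or.inl ⟨Matrix.single (σ i) (σ i) (u⁻¹ : Rˣ).1, ?_, ?_, ?_, ?_⟩
        · rw [Matrix.single_mul_single_same, one_mul]
        · rw [Matrix.single_mul_single_same, mul_one]
        · rw [Matrix.single_mul_single_same, Units.mul_inv]
        · rw [Matrix.single_mul_single_same, Units.inv_mul]
      · obtain ⟨u, hu⟩ := hu
        refine Or.inr ⟨Matrix.single (σ i) (σ i) (u⁻¹ : Rˣ).1, ?_, ?_, ?_, ?_⟩
        · rw [Matrix.single_mul_single_same, one_mul]
        · rw [Matrix.single_mul_single_same, mul_one]
        · rw [H849.single_sub', ← hu, Matrix.single_mul_single_same, Units.mul_inv]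
        · rw [H849.single_sub', ← hu, Matrix.single_mul_single_same, Units.inv_mul])
  obtain ⟨f⟩ := H849.net_iso (R := R) (X := X)
  have h2 : {S : Subring (Matrix X X R) // ∀ (x : X) (M : Matrix X X R),
      Matrix.single x x (1 : R) * M * Matrix.single x x (1 : R) ∈ S} ≃o
      {S : Subring (Matrix X X R) // ∀ (i : Fin (Fintype.card X)) (M : Matrix X X R),
        Matrix.single (σ i) (σ i) (1 : R) * M * Matrix.single (σ i) (σ i) (1 : R) ∈ S} :=
    { toFun := fun S => ⟨S.1, fun i M => S.2 (σ i) M⟩
      invFun := fun S => ⟨S.1, fun x M => by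
        obtain ⟨i, rfl⟩ := σ.surjective x
        exact S.2 i M⟩
      left_inv := fun _ => rfl
      right_inv := fun _ => rfl
      map_rel_iff' := Iff.rfl }
  exact GroupInterval.of_iso (f.trans h2) h1

end Vale.Agent.P183.H577
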